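import Vale.Agent.P154.R4K.C4Data

/-! # P154 q = 4: kernel checks for the closure certificate (k = 7/4, lam0 = 3/5) -/

namespace Vale.Agent.P154.C4

open Vale.Agent.Util.Polya Vale.Agent.P154

set_option maxRecDepth 100000

theorem hgood : good 11 11 152 (certE 11 0 1 1 6 Ld [Xs0, Xs1] [Xt0, Xt1]) = true := by
  decide +kernel

theorem hbnd : 2 * bnd (certE 11 0 1 1 6 Ld [Xs0, Xs1] [Xt0, Xt1]) < 2 ^ 152 := by
  decide +kernel

theorem hchk1 : check 152 12 11 (certE 11 0 1 1 6 Ld [Xs0, Xs1] [Xt0, Xt1]) 0 12 = true := by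
  decide +kernel

theorem hchk2 : check 152 12 11 (certE 11 0 1 1 6 Ld [Xs0, Xs1] [Xt0, Xt1]) (0 + 12) 24 = true := by
  decide +kernel

theorem hchk3 : check 152 12 11 (certE 11 0 1 1 6 Ld [Xs0, Xs1] [Xt0, Xt1]) (0 + 12 + 24) 108 = true := by
  decide +kernel

theorem hchk : check 152 12 11 (certE 11 0 1 1 6 Ld [Xs0, Xs1] [Xt0, Xt1]) 0 (12 * 12) = true := by
  have h := check_append (check_append hchk1 hchk2) hchk3
  have e : 12 + 24 + 108 = 12 * 12 := by norm_num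
  rw [e] at h
  exact h

theorem hpitLd : pit4 80 12 (smE 11 Ld (.v 0) (.v 1) (.v 2) (.v 3) (.c 1)) tgtLd = true := by
  decide +kernel

theorem hpitXs0 : pit4 60 12 (smE 11 Xs0 (.v 0) (.v 1) (.v 2) (.v 3) (.c 1)) tXs0 = true := by
  decide +kernel

theorem hpitXt0 : pit4 60 12 (smE 11 Xt0 (.v 0) (.v 1) (.v 2) (.v 3) (.c 1)) tXt0 = true := by
  decide +kernel

theorem hpitXs1 : pit4 60 12 (smE 11 Xs1 (.v 0) (.v 1) (.v 2) (.v 3) (.c 1)) tXs1 = true := by
  decide +kernel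

theorem hpitXt1 : pit4 60 12 (smE 11 Xt1 (.v 0) (.v 1) (.v 2) (.v 3) (.c 1)) tXt1 = true := by
  decide +kernel

/-! positivity of the multipliers -/

theorem c1good : good 11 0 64 (oneE 11 1 6 Xt0) = true := by decide +kernel
theorem c1bnd : 2 * bnd (oneE 11 1 6 Xt0) < 2 ^ 64 := by decide +kernel
theorem c1chk : check 64 12 11 (oneE 11 1 6 Xt0) 0 (12 * 12) = true := by decide +kernel

theorem c2good : good 11 0 64 (oneE 11 0 1 Xs1) = true := by decide +kernel
theorem c2bnd : 2 * bnd (oneE 11 0 1 Xs1) < 2 ^ 64 := by decide +kernel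
theorem c2chk : check 64 12 11 (oneE 11 0 1 Xs1) 0 (12 * 12) = true := by decide +kernel

end Vale.Agent.P154.C4
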