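import Vale.Agent.P154.R4.KForm

/-!
# P154 q = 4: lower bound of the kernel `KQ (psK k)` when `1 / Z ^ j` is replaced by smaller numbers
-/

namespace Vale.Agent.P154

open Finset

/-- the kernel `KQ (psK k)` with `1 / Z`, `1 / Z ^ 2`, `1 / Z ^ 3` replaced by `l1`, `l2`, `l3` -/
noncomputable def LBq (k Z E2 E3 l1 l2 l3 : ℝ) : ℝ :=
  -Z + 16 * E3 * l2 + (3 - k) * (Z ^ 2 - 8 / 3 * E2) * l1
    + k * (Z ^ 2 - 8 / 3 * E2) * (8 / 3 * E2) * l3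

theorem e1sq_sub_nonneg (U : Fin 4 → ℝ) : 0 ≤ e1Q U ^ 2 - 8 / 3 * e2Q U := by
  have : e1Q U ^ 2 - 8 / 3 * e2Q U = ((U 0 - U 1) ^ 2 + (U 0 - U 2) ^ 2 + (U 0 - U 3) ^ 2
      + (U 1 - U 2) ^ 2 + (U 1 - U 3) ^ 2 + (U 2 - U 3) ^ 2) / 3 := by
    unfold e1Q e2Q
    ring
  rw [this]
  positivity

theorem KQ_ps_low (k : ℝ) (hk0 : 0 ≤ k) (hk3 : k ≤ 3) (a b : Fin 4 → ℝ) (hZ : 0 < ZQ a b)
    (hU : ∀ i, 0 ≤ uQ a b i) (l1 l2 l3 : ℝ) (h1 : l1 ≤ 1 / e1Q (uQ a b))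
    (h2 : l2 ≤ 1 / e1Q (uQ a b) ^ 2) (h3 : l3 ≤ 1 / e1Q (uQ a b) ^ 3) :
    LBq k (e1Q (uQ a b)) (e2Q (uQ a b)) (e3Q (uQ a b)) l1 l2 l3 ≤ KQ (psK k) a b := by
  rw [KQ_ps_eq k a b hZ]
  have hZ' : 0 < e1Q (uQ a b) := ZQ_eq_e1 a b ▸ hZ
  have hN := e1sq_sub_nonneg (uQ a b)
  have hE2 := e2Q_nonneg (uQ a b) hU
  have hE3 := e3Q_nonneg (uQ a b) hU
  generalize e1Q (uQ a b) = Z at *
  generalize e2Q (uQ a b) = E2 at *
  generalize e3Q (uQ a b) = E3 at *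
  have key : (2 - k) * Z + (16 * k / 3 - 8) * E2 / Z + 16 * E3 / Z ^ 2 - 64 * k / 9 * E2 ^ 2 / Z ^ 3
      = LBq k Z E2 E3 (1 / Z) (1 / Z ^ 2) (1 / Z ^ 3) := by
    unfold LBq
    field_simp
    ring
  rw [key]
  unfold LBq
  have t1 : 16 * E3 * l2 ≤ 16 * E3 * (1 / Z ^ 2) :=
    mul_le_mul_of_nonneg_left h2 (by positivity)
  have t2 : (3 - k) * (Z ^ 2 - 8 / 3 * E2) * l1 ≤ (3 - k) * (Z ^ 2 - 8 / 3 * E2) * (1 / Z) :=
    mul_le_mul_of_nonneg_left h1 (mul_nonneg (by linarith) hN)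
  have t3 : k * (Z ^ 2 - 8 / 3 * E2) * (8 / 3 * E2) * l3 ≤
      k * (Z ^ 2 - 8 / 3 * E2) * (8 / 3 * E2) * (1 / Z ^ 3) :=
    mul_le_mul_of_nonneg_left h3 (mul_nonneg (mul_nonneg hk0 hN) (by positivity))
  linarith

/-- the average over the permutations is bounded below by the average of lower bounds -/
theorem avQ_ge_of_forall (g : (Fin 4 → ℝ) → ℝ) (b : Fin 4 → ℝ) (f : Equiv.Perm (Fin 4) → ℝ)
    (h : ∀ σ : Equiv.Perm (Fin 4), f σ ≤ g (fun i => b (σ i))) :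
    (∑ σ : Equiv.Perm (Fin 4), f σ) / 24 ≤ avQ g b := by
  unfold avQ
  have h24 : ((Nat.factorial 4 : ℕ) : ℝ) = 24 := by norm_num [Nat.factorial]
  rw [h24]
  exact div_le_div_of_nonneg_right (Finset.sum_le_sum fun σ _ => h σ) (by norm_num)

theorem avQ_le_of_forall (g : (Fin 4 → ℝ) → ℝ) (b : Fin 4 → ℝ) (f : Equiv.Perm (Fin 4) → ℝ)
    (h : ∀ σ : Equiv.Perm (Fin 4), g (fun i => b (σ i)) ≤ f σ) :
    avQ g b ≤ (∑ σ : Equiv.Perm (Fin 4), f σ) / 24 := by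
  unfold avQ
  have h24 : ((Nat.factorial 4 : ℕ) : ℝ) = 24 := by norm_num [Nat.factorial]
  rw [h24]
  exact div_le_div_of_nonneg_right (Finset.sum_le_sum fun σ _ => h σ) (by norm_num)

/-- positivity of the normalisation if `a ≥ -1`, `b > -1` -/
theorem ZQ_pos_of (a b : Fin 4 → ℝ) (r : ℝ) (hr : r < 1) (ha0 : ∑ i, a i = 0) (ha : ∀ i, -1 ≤ a i)
    (hb : ∀ i, -r ≤ b i) : 0 < ZQ a b := by
  rw [ZQ_eq_e1]
  rw [Fin.sum_univ_four] at ha0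
  unfold e1Q uQ
  have p0 : 0 ≤ (1 + a 0) * (b 0 + r) := mul_nonneg (by linarith [ha 0]) (by linarith [hb 0])
  have p1 : 0 ≤ (1 + a 1) * (b 1 + r) := mul_nonneg (by linarith [ha 1]) (by linarith [hb 1])
  have p2 : 0 ≤ (1 + a 2) * (b 2 + r) := mul_nonneg (by linarith [ha 2]) (by linarith [hb 2])
  have p3 : 0 ≤ (1 + a 3) * (b 3 + r) := mul_nonneg (by linarith [ha 3]) (by linarith [hb 3])
  nlinarith [p0, p1, p2, p3]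

theorem uQ_nonneg_of (a b : Fin 4 → ℝ) (ha : ∀ i, -1 ≤ a i) (hb : ∀ i, -1 ≤ b i) (i : Fin 4) :
    0 ≤ uQ a b i := by
  unfold uQ
  have : 0 ≤ (1 + a i) * (1 + b i) := mul_nonneg (by linarith [ha i]) (by linarith [hb i])
  linarith

end Vale.Agent.P154
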