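import Vale.Agent.P154.R4K.C57Data

/-! # P154 q = 4: kernel check of the closure certificate (k = 7/4, lam0 = 5/7), rows 7 to 17 -/

namespace Vale.Agent.P154.C57

open Vale.Agent.Util.Polya Vale.Agent.P154

set_option maxRecDepth 100000

theorem hchk2 : check 188 14 13 (certE 13 0 1 1 10 Ld [Xs0, Xs1] [Xt0, Xt1]) 7 11 = true := by
  decide +kernel

end Vale.Agent.P154.C57
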