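import Vale.Agent.P154.R4K.C57Chk1
import Vale.Agent.P154.R4K.C57Chk2
import Vale.Agent.P154.R4K.C57Chk3
import Vale.Agent.P154.R4K.C57Chk4
import Vale.Agent.P154.R4K.C57Chk5
import Vale.Agent.P154.R4K.C57Chk6
import Vale.Agent.P154.R4K.C57Chk7
import Vale.Agent.P154.R4K.C57Chk8

/-! # P154 q = 4: kernel checks for the closure certificate (k = 7/4, lam0 = 5/7) -/

namespace Vale.Agent.P154.C57

open Vale.Agent.Util.Polya Vale.Agent.P154

set_option maxRecDepth 100000

theorem check_append' {w S D : ℕ} {L : List (PE × PE)} {r0 n r1 m : ℕ}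
    (h1 : check w S D L r0 n = true) (h2 : check w S D L r1 m = true) (e1 : r1 = r0 + n) (k : ℕ)
    (e2 : k = n + m) : check w S D L r0 k = true := by
  subst e1 e2
  exact check_append h1 h2

theorem hgood : good 13 13 188 (certE 13 0 1 1 10 Ld [Xs0, Xs1] [Xt0, Xt1]) = true := by
  decide +kernel

theorem hbnd : 2 * bnd (certE 13 0 1 1 10 Ld [Xs0, Xs1] [Xt0, Xt1]) < 2 ^ 188 := by
  decide +kernel

theorem hchk : check 188 14 13 (certE 13 0 1 1 10 Ld [Xs0, Xs1] [Xt0, Xt1]) 0 (14 * 14) = true := by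
  have h1 := hchk1
  have h2 := check_append' h1 hchk2 (by norm_num) 18 (by norm_num)
  have h3 := check_append' h2 hchk3 (by norm_num) 31 (by norm_num)
  have h4 := check_append' h3 hchk4 (by norm_num) 45 (by norm_num)
  have h5 := check_append' h4 hchk5 (by norm_num) 60 (by norm_num)
  have h6 := check_append' h5 hchk6 (by norm_num) 85 (by norm_num)
  have h7 := check_append' h6 hchk7 (by norm_num) 115 (by norm_num)
  have h8 := check_append' h7 hchk8 (by norm_num) 196 (by norm_num)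
  have e : 196 = 14 * 14 := by norm_num
  rw [e] at h8
  exact h8

theorem hpitLd : pit4 104 14 (smE 13 Ld (.v 0) (.v 1) (.v 2) (.v 3) (.c 1)) tgtLd = true := by
  decide +kernel

theorem hpitXs0 : pit4 80 14 (smE 13 Xs0 (.v 0) (.v 1) (.v 2) (.v 3) (.c 1)) tXs0 = true := by
  decide +kernel

theorem hpitXt0 : pit4 80 14 (smE 13 Xt0 (.v 0) (.v 1) (.v 2) (.v 3) (.c 1)) tXt0 = true := by
  decide +kernel

theorem hpitXs1 : pit4 80 14 (smE 13 Xs1 (.v 0) (.v 1) (.v 2) (.v 3) (.c 1)) tXs1 = true := by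
  decide +kernel

theorem hpitXt1 : pit4 80 14 (smE 13 Xt1 (.v 0) (.v 1) (.v 2) (.v 3) (.c 1)) tXt1 = true := by
  decide +kernel

/-! positivity of the multipliers -/

theorem c1good : good 13 0 76 (oneE 13 1 10 Xt0) = true := by decide +kernel
theorem c1bnd : 2 * bnd (oneE 13 1 10 Xt0) < 2 ^ 76 := by decide +kernel
theorem c1chk : check 76 14 13 (oneE 13 1 10 Xt0) 0 (14 * 14) = true := by decide +kernel

theorem c2good : good 13 0 76 (oneE 13 0 1 Xs1) = true := by decide +kernel
theorem c2bnd : 2 * bnd (oneE 13 0 1 Xs1) < 2 ^ 76 := by decide +kernel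
theorem c2chk : check 76 14 13 (oneE 13 0 1 Xs1) 0 (14 * 14) = true := by decide +kernel

end Vale.Agent.P154.C57
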