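import Vale.Agent.P154.R4K.C4Chk
import Vale.Agent.P154.R4K.C4Low

/-!
# P154 q = 4: the closure inequality (C4) on `T × (3/5) T`, `k = 7/4`

`keyC`: `c1C b * psK (7/4) a + c2C a * psK (35/12) b ≤ avQ (KQ (psK (7/4)) a) b`, and `c1C`, `c2C ≥ 0`.
(Certificate: helper46; `p2 = P2/4`, `m = P3/24`, `s4 = 3 P2^2/32 - P4/8`, `P_n` the power sums;
`c1 = 1 - (43/20) p2 + (17/5) m + (3/2) p2^2 - (29/10) s4`, `c2 = 1 - (13/20) p2 - (11/2) m + (7/5) p2^2 - (5/4) s4`.)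
-/

namespace Vale.Agent.P154.C4

open Finset Vale.Agent.Util.Polya Vale.Agent.P154

noncomputable def L1 (z : ℝ) : ℝ :=
  1 - z + z ^ 2 - z ^ 3 + 8 / 9 * z ^ 4 - 5 / 9 * z ^ 5 + 7 / 36 * z ^ 6 - 1 / 36 * z ^ 7

noncomputable def L2 (z : ℝ) : ℝ := 1 - 2 * z + 3 * z ^ 2 - 4 * z ^ 3 + 7 / 2 * z ^ 4 - 5 / 4 * z ^ 5

noncomputable def L3 (z : ℝ) : ℝ :=
  1 - 3 * z + 2894686 / 492075 * z ^ 2 - 21156838 / 2460375 * z ^ 3 + 104884576 / 12301875 * z ^ 4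
    - 12584512 / 2460375 * z ^ 5 + 20174848 / 12301875 * z ^ 6 - 2633216 / 12301875 * z ^ 7

theorem L1_le (Z : ℝ) (hZ : 0 < Z) : L1 (Z - 1) ≤ 1 / Z := by
  rw [le_div_iff₀ hZ]
  have h1 : 1 - L1 (Z - 1) * Z = (Z - 1) ^ 4 * (Z - 2) ^ 2 * (Z - 3) ^ 2 / 36 := by
    unfold L1
    ring
  have h2 : 0 ≤ (Z - 1) ^ 4 * (Z - 2) ^ 2 * (Z - 3) ^ 2 / 36 := by positivity
  linarith

theorem L2_le (Z : ℝ) (hZ : 0 < Z) : L2 (Z - 1) ≤ 1 / Z ^ 2 := by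
  rw [le_div_iff₀ (by positivity)]
  have h1 : 1 - L2 (Z - 1) * Z ^ 2 = (Z - 1) ^ 4 * (Z - 2) ^ 2 * (1 / 4 + 5 / 4 * Z) := by
    unfold L2
    ring
  have h2 : 0 ≤ (Z - 1) ^ 4 * (Z - 2) ^ 2 * (1 / 4 + 5 / 4 * Z) := by positivity
  linarith

theorem L3_le (Z : ℝ) (hZ : 0 < Z) : L3 (Z - 1) ≤ 1 / Z ^ 3 := by
  rw [le_div_iff₀ (by positivity)]
  have h1 : 1 - L3 (Z - 1) * Z ^ 3 = (Z - 1) ^ 2 * (Z - 1 - 1 / 4) ^ 2 * (Z - 1 - 5 / 4) ^ 2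
      * (Z - 1 - 2) ^ 2 * (3696896 + 6157312 * (Z - 1) + 2633216 * (Z - 1) ^ 2) / 12301875 := by
    unfold L3
    ring
  have h3 : 0 ≤ 3696896 + 6157312 * (Z - 1) + 2633216 * (Z - 1) ^ 2 := by
    nlinarith [sq_nonneg (2 * 2633216 * (Z - 1) + 6157312)]
  have h2 : 0 ≤ (Z - 1) ^ 2 * (Z - 1 - 1 / 4) ^ 2 * (Z - 1 - 5 / 4) ^ 2
      * (Z - 1 - 2) ^ 2 * (3696896 + 6157312 * (Z - 1) + 2633216 * (Z - 1) ^ 2) / 12301875 := by
    positivity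
  linarith

/-- the multiplier of `psK k a` -/
noncomputable def c1C (b : Fin 4 → ℝ) : ℝ :=
  1 - 43 / 80 * (∑ i, b i ^ 2) + 17 / 120 * (∑ i, b i ^ 3) - 57 / 320 * (∑ i, b i ^ 2) ^ 2
    + 29 / 80 * ∑ i, b i ^ 4

/-- the multiplier of `psK (k / lam0) b` -/
noncomputable def c2C (a : Fin 4 → ℝ) : ℝ :=
  1 - 13 / 80 * (∑ i, a i ^ 2) - 11 / 48 * (∑ i, a i ^ 3) - 19 / 640 * (∑ i, a i ^ 2) ^ 2
    + 5 / 32 * ∑ i, a i ^ 4

theorem sideP (a : Fin 4 → ℝ) (ha0 : ∑ i, a i = 0) (ha : ∀ i, -1 ≤ a i) :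
    SideT (fun i => (1 + a i) / 4) 0 1 1 := by
  refine ⟨fun i => (1 + a i) / 4, fun i => by linarith [ha i], ?_, fun i => by push_cast; ring⟩
  rw [← Finset.sum_div, Finset.sum_add_distrib, ha0]
  simp

theorem sideQ (b : Fin 4 → ℝ) (hb0 : ∑ i, b i = 0) (hb : ∀ i, -(3 / 5) ≤ b i) :
    SideT (fun i => 5 / 2 * (1 + b i)) 1 6 1 := by
  refine ⟨fun i => (3 + 5 * b i) / 12, fun i => by linarith [hb i], ?_, fun i => by push_cast; ring⟩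
  rw [← Finset.sum_div, Finset.sum_add_distrib, ← Finset.mul_sum, hb0]
  simp
  norm_num

theorem lXs0 (a : Fin 4 → ℝ) :
    sm 11 Xs0 ((1 + a 0) / 4) ((1 + a 1) / 4) ((1 + a 2) / 4) ((1 + a 3) / 4) 1 =
      -73811250000000 * psK (7 / 4) a := by
  have h := sm_eq_of_pit4 60 12 11 Xs0 (.v 0) (.v 1) (.v 2) (.v 3) (.c 1) tXs0 hpitXs0
    (fun i => (1 + a i) / 4)
  simp only [PE.ev, Int.cast_one] at h
  rw [h, tXs0, ev_sideE _ a _ _ _ _ _ _ _ (fun i => by push_cast; ring)]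
  unfold psK alQ
  push_cast
  ring

theorem lXs1 (a : Fin 4 → ℝ) :
    sm 11 Xs1 ((1 + a 0) / 4) ((1 + a 1) / 4) ((1 + a 2) / 4) ((1 + a 3) / 4) 1 = 5760 * c2C a := by
  have h := sm_eq_of_pit4 60 12 11 Xs1 (.v 0) (.v 1) (.v 2) (.v 3) (.c 1) tXs1 hpitXs1
    (fun i => (1 + a i) / 4)
  simp only [PE.ev, Int.cast_one] at h
  rw [h, tXs1, ev_sideE _ a _ _ _ _ _ _ _ (fun i => by push_cast; ring)]
  unfold c2C
  push_cast
  ring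

theorem lXt0 (b : Fin 4 → ℝ) :
    sm 11 Xt0 (5 / 2 * (1 + b 0)) (5 / 2 * (1 + b 1)) (5 / 2 * (1 + b 2)) (5 / 2 * (1 + b 3)) 1 =
      1800000 * c1C b := by
  have h := sm_eq_of_pit4 60 12 11 Xt0 (.v 0) (.v 1) (.v 2) (.v 3) (.c 1) tXt0 hpitXt0
    (fun i => 5 / 2 * (1 + b i))
  simp only [PE.ev, Int.cast_one] at h
  rw [h, tXt0, ev_sideE _ (fun i => 5 * b i) _ _ _ _ _ _ _ (fun i => by push_cast; ring)]
  unfold c1C
  simp only [mul_pow, ← Finset.mul_sum]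
  push_cast
  ring

theorem lXt1 (b : Fin 4 → ℝ) :
    sm 11 Xt1 (5 / 2 * (1 + b 0)) (5 / 2 * (1 + b 1)) (5 / 2 * (1 + b 2)) (5 / 2 * (1 + b 3)) 1 =
      -23066015625000000 * psK (5 * (7 / 4) / 3) b := by
  have h := sm_eq_of_pit4 60 12 11 Xt1 (.v 0) (.v 1) (.v 2) (.v 3) (.c 1) tXt1 hpitXt1
    (fun i => 5 / 2 * (1 + b i))
  simp only [PE.ev, Int.cast_one] at h
  rw [h, tXt1, ev_sideE _ (fun i => 5 * b i) _ _ _ _ _ _ _ (fun i => by push_cast; ring)]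
  unfold psK alQ
  simp only [mul_pow, ← Finset.mul_sum]
  push_cast
  ring

theorem lLd (v : Fin 4 → ℝ) :
    sm 11 Ld (v 0) (v 1) (v 2) (v 3) 1 =
      5535843750000000000 * LBq (7 / 4) (2 / 5 * e1Q v) (4 / 25 * e2Q v) (8 / 125 * e3Q v)
        (L1 (2 / 5 * e1Q v - 1)) (L2 (2 / 5 * e1Q v - 1)) (L3 (2 / 5 * e1Q v - 1)) := by
  have h := sm_eq_of_pit4 80 12 11 Ld (.v 0) (.v 1) (.v 2) (.v 3) (.c 1) tgtLd hpitLd v
  simp only [PE.ev, Int.cast_one] at h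
  rw [h]
  unfold tgtLd
  simp only [PE.ev, ev_e1E, ev_e2E, ev_e3E]
  generalize e1Q v = Z
  generalize e2Q v = E2
  generalize e3Q v = E3
  unfold LBq L1 L2 L3
  push_cast
  ring

theorem c1C_nonneg (b : Fin 4 → ℝ) (hb0 : ∑ i, b i = 0) (hb : ∀ i, -(3 / 5) ≤ b i) : 0 ≤ c1C b := by
  have h := sm_nonneg_of_check 64 12 11 1 6 Xt0 (by norm_num) (by norm_num) c1good c1bnd c1chk _ 1
    (sideQ b hb0 hb)
  simp only [lXt0] at h
  linarith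

theorem c2C_nonneg (a : Fin 4 → ℝ) (ha0 : ∑ i, a i = 0) (ha : ∀ i, -1 ≤ a i) : 0 ≤ c2C a := by
  have h := sm_nonneg_of_check 64 12 11 0 1 Xs1 (by norm_num) (by norm_num) c2good c2bnd c2chk _ 1
    (sideP a ha0 ha)
  simp only [lXs1] at h
  linarith

/-- **the closure inequality (C4)** on `T × (3/5) T` -/
theorem keyC (a b : Fin 4 → ℝ) (ha0 : ∑ i, a i = 0) (ha : ∀ i, -1 ≤ a i) (hb0 : ∑ i, b i = 0)
    (hb : ∀ i, -(3 / 5) ≤ b i) :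
    c1C b * psK (7 / 4) a + c2C a * psK (5 * (7 / 4) / 3) b ≤ avQ (KQ (psK (7 / 4)) a) b := by
  have hM := masterG 152 12 11 0 1 1 6 Ld [Xs0, Xs1] [Xt0, Xt1] (by norm_num) (by norm_num) hgood
    hbnd hchk _ _ 1 1 (sideP a ha0 ha) (sideQ b hb0 hb)
  simp only [List.map_cons, List.map_nil, dotRR, lXs0, lXs1, lXt0, lXt1, mul_one, add_zero] at hM
  -- the lower bounds for the single permutations
  have hlow : ∀ σ : Equiv.Perm (Fin 4),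
      sm 11 Ld ((1 + a 0) / 4 * (5 / 2 * (1 + b (σ 0)))) ((1 + a 1) / 4 * (5 / 2 * (1 + b (σ 1))))
        ((1 + a 2) / 4 * (5 / 2 * (1 + b (σ 2)))) ((1 + a 3) / 4 * (5 / 2 * (1 + b (σ 3)))) 1
        / 5535843750000000000 ≤ KQ (psK (7 / 4)) a (fun i => b (σ i)) := by
    intro σ
    have hZ : 0 < ZQ a (fun i => b (σ i)) :=
      ZQ_pos_of a _ (3 / 5) (by norm_num) ha0 ha (fun i => hb (σ i))
    have hZ' : 0 < e1Q (uQ a (fun i => b (σ i))) := ZQ_eq_e1 a _ ▸ hZ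
    have hU : ∀ i, 0 ≤ uQ a (fun i => b (σ i)) i :=
      uQ_nonneg_of a _ ha (fun i => by linarith [hb (σ i)])
    have h1 := KQ_ps_low (7 / 4) (by norm_num) (by norm_num) a (fun i => b (σ i)) hZ hU _ _ _
      (L1_le _ hZ') (L2_le _ hZ') (L3_le _ hZ')
    have h2 := lLd (fun i => (1 + a i) / 4 * (5 / 2 * (1 + b (σ i))))
    have e1 : 2 / 5 * e1Q (fun i => (1 + a i) / 4 * (5 / 2 * (1 + b (σ i)))) =
        e1Q (uQ a (fun i => b (σ i))) := by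
      unfold e1Q uQ
      ring
    have e2 : 4 / 25 * e2Q (fun i => (1 + a i) / 4 * (5 / 2 * (1 + b (σ i)))) =
        e2Q (uQ a (fun i => b (σ i))) := by
      unfold e2Q uQ
      ring
    have e3 : 8 / 125 * e3Q (fun i => (1 + a i) / 4 * (5 / 2 * (1 + b (σ i)))) =
        e3Q (uQ a (fun i => b (σ i))) := by
      unfold e3Q uQ
      ring
    rw [e1, e2, e3] at h2
    rw [h2, mul_div_cancel_left₀ _ (by norm_num)]
    exact h1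
  have hav := avQ_ge_of_forall (KQ (psK (7 / 4)) a) b _ hlow
  rw [← Finset.sum_div] at hav
  refine le_trans ?_ hav
  rw [div_div, le_div_iff₀ (by norm_num)]
  linarith

end Vale.Agent.P154.C4
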