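import Vale.Agent.P154.R4K.X4Data
import Vale.Agent.P154.R4.KForm

/-!
# P154 q = 4: the subadditivity inequality (X4) on `T x (3/5) T`

`keyX`: for deviation vectors `a` (entries at least `-1`) and `b` (entries at least `-3/5`)
`avQ (KQ alQ a) b <= alQ a + alQ b - pM4 b * psK (7/4) a - pM4 a * psK (35/12) b - (1/20) (al^2 be + al be^2)`,
and `pM4_nonneg`.  Proof: `1 / Z >= qX (Z - 1)`, the diagonalisation of the group average and the packed check of the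
coefficients (`masterK`).
-/

namespace Vale.Agent.P154

open Finset Vale.Agent.Util.Polya

/-- a polynomial below `1 / (1 + z)` -/
noncomputable def qX (z : ℝ) : ℝ := 1 - z + z ^ 2 - z ^ 3 + 3 / 4 * z ^ 4 - 1 / 4 * z ^ 5

theorem qX_le (Z : ℝ) (hZ : 0 < Z) : qX (Z - 1) ≤ 1 / Z := by
  rw [le_div_iff₀ hZ]
  have h : qX (Z - 1) * Z = 1 - ((Z - 1) ^ 2 * (Z - 2)) ^ 2 / 4 := by
    unfold qX
    ring
  rw [h]
  have := sq_nonneg ((Z - 1) ^ 2 * (Z - 2))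
  linarith

noncomputable def phiX (u : Fin 4 → ℝ) : ℝ := 8 / 3 * e2Q u * qX (e1Q u - 1) - e1Q u

def tgtX4 : P4 :=
  add4 (mul4 e2P (cmp4 zP [3804202857922560000000, -3804202857922560000000, 3804202857922560000000, -3804202857922560000000, 2853152143441920000000, -951050714480640000000]))
    (ax4 (-1426576071720960000000) e1P [])

set_option maxRecDepth 100000 in
theorem chkUX4 : chkU 7 LdX4 120 48 tgtX4 = true := by
  decide +kernel

theorem sm_LdX4 (u : Fin 4 → ℝ) :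
    sm 7 LdX4 (120 * u 0) (120 * u 1) (120 * u 2) (120 * u 3) 48 = 1426576071720960000000 * phiX u := by
  rw [sm_tgtU 7 LdX4 120 48 tgtX4 chkUX4 u _ _ _ _ _ (by push_cast; ring) (by push_cast; ring)
    (by push_cast; ring) (by push_cast; ring) (by norm_num)]
  simp only [tgtX4, ev4_add, ev4_mul, ev4_cmp, ev4_ax, ev4_nil, ev4_e1P, ev4_e2P, ev4_zP, ev1, evL]
  unfold phiX qX
  generalize e1Q u = Z
  generalize e2Q u = E
  push_cast
  ring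

/-- the multiplier -/
noncomputable def pM4 (a : Fin 4 → ℝ) : ℝ :=
  (∑ i, a i ^ 2) / 6 - (∑ i, a i ^ 3) / 48 + (∑ i, a i ^ 2) ^ 2 / 48 - (∑ i, a i ^ 4) / 12
    + (∑ i, a i ^ 2) * (∑ i, a i ^ 3) / 96

def LpM : TL :=
  [(7, 0, 0, 0, 0), (-36, 1, 0, 0, 0), (48, 1, 1, 0, 0), (-192, 2, 0, 0, 0), (96, 2, 1, 0, 0), (-384, 2, 2, 0, 0),
   (1120, 3, 0, 0, 0), (-768, 3, 1, 0, 0), (1536, 3, 2, 0, 0), (-1408, 4, 0, 0, 0), (512, 5, 0, 0, 0)]

def TpM : TG := [(-24576, 0, 0, 1), (-6144, 0, 1, 0), (49152, 1, 0, 0), (3072, 1, 1, 0), (6144, 2, 0, 0)]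

set_option maxRecDepth 100000 in
theorem chkTpM : chkT 5 LpM 1 1 4 TpM = true := by
  decide +kernel

set_option maxRecDepth 100000 in
theorem goodpM : good 5 0 32 (oneE 5 0 1 LpM) = true := by
  decide +kernel

set_option maxRecDepth 100000 in
theorem bndpM : 2 * bnd (oneE 5 0 1 LpM) < 2 ^ 32 := by
  decide +kernel

set_option maxRecDepth 100000 in
theorem chkpM : check 32 6 5 (oneE 5 0 1 LpM) 0 (6 * 6) = true := by
  decide +kernel

theorem pM4_nonneg (a : Fin 4 → ℝ) (ha0 : ∑ i, a i = 0) (ha : ∀ i, -1 ≤ a i) : 0 ≤ pM4 a := by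
  have h := sm_nonneg_of_check 32 6 5 0 1 LpM (by norm_num) (by norm_num) goodpM bndpM chkpM
    (fun i => 1 + a i) 4 (sideT_one a ha0 ha)
  rw [sm_tgt 5 LpM 1 1 4 TpM chkTpM (a 0) (a 1) (a 2) (a 3) _ _ _ _ _ (by push_cast; ring)
    (by push_cast; ring) (by push_cast; ring) (by push_cast; ring) (by norm_num)] at h
  simp only [TpM, tgtR] at h
  unfold pM4
  simp only [Fin.sum_univ_four]
  push_cast at h
  linarith

theorem alQ_four (a : Fin 4 → ℝ) : alQ a = (a 0 ^ 2 + a 1 ^ 2 + a 2 ^ 2 + a 3 ^ 2) / 12 := by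
  unfold alQ
  rw [Fin.sum_univ_four]
  norm_num

theorem KQ_al_le (a b : Fin 4 → ℝ) (ha0 : ∑ i, a i = 0) (ha : ∀ i, -1 ≤ a i)
    (hb : ∀ i, -(3 / 5) ≤ b i) : KQ alQ a b ≤ -phiX (uQ a b) := by
  have hZ : 0 < ZQ a b := ZQ_pos (by norm_num) a b ha0 ha (fun i => by linarith [hb i])
  rw [KQ_al_eq a b hZ]
  rw [ZQ_eq_e1] at hZ
  have h2 : 0 ≤ e2Q (uQ a b) := e2Q_nonneg _ (uQ_nonneg a b ha hb)
  have h3 := qX_le _ hZ
  have h4 := mul_le_mul_of_nonneg_left h3 h2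
  unfold phiX
  have h5 : 8 / 3 * e2Q (uQ a b) / e1Q (uQ a b) = 8 / 3 * (e2Q (uQ a b) * (1 / e1Q (uQ a b))) := by
    ring
  rw [h5]
  linarith

theorem keyX (a b : Fin 4 → ℝ) (ha0 : ∑ i, a i = 0) (ha : ∀ i, -1 ≤ a i) (hb0 : ∑ i, b i = 0)
    (hb : ∀ i, -(3 / 5) ≤ b i) :
    avQ (KQ alQ a) b ≤ alQ a + alQ b - pM4 b * psK (7 / 4) a - pM4 a * psK (5 * (7 / 4) / 3) b
      - 1 / 20 * (alQ a ^ 2 * alQ b + alQ a * alQ b ^ 2) := by
  have hm := masterK 96 8 7 LdX4 XsX4 XtX4 (by norm_num) (by norm_num) goodX4 bndX4 chkX4 a b ha0 ha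
    hb0 hb
  simp only [sm_LdX4, XsX4, XtX4, List.map_cons, List.map_nil, dotRR] at hm
  rw [sm_tgt 7 XsX4_0 1 1 4 TsX4_0 chkSX4_0 (a 0) (a 1) (a 2) (a 3) _ _ _ _ _ (by push_cast; ring)
    (by push_cast; ring) (by push_cast; ring) (by push_cast; ring) (by norm_num)] at hm
  rw [sm_tgt 7 XtX4_0 30 30 12 TtX4_0 chkTX4_0 (b 0) (b 1) (b 2) (b 3) _ _ _ _ _ (by push_cast; ring)
    (by push_cast; ring) (by push_cast; ring) (by push_cast; ring) (by norm_num)] at hm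
  rw [sm_tgt 7 XsX4_1 1 1 4 TsX4_1 chkSX4_1 (a 0) (a 1) (a 2) (a 3) _ _ _ _ _ (by push_cast; ring)
    (by push_cast; ring) (by push_cast; ring) (by push_cast; ring) (by norm_num)] at hm
  rw [sm_tgt 7 XtX4_1 30 30 12 TtX4_1 chkTX4_1 (b 0) (b 1) (b 2) (b 3) _ _ _ _ _ (by push_cast; ring)
    (by push_cast; ring) (by push_cast; ring) (by push_cast; ring) (by norm_num)] at hm
  rw [sm_tgt 7 XsX4_2 1 1 4 TsX4_2 chkSX4_2 (a 0) (a 1) (a 2) (a 3) _ _ _ _ _ (by push_cast; ring)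
    (by push_cast; ring) (by push_cast; ring) (by push_cast; ring) (by norm_num)] at hm
  rw [sm_tgt 7 XtX4_2 30 30 12 TtX4_2 chkTX4_2 (b 0) (b 1) (b 2) (b 3) _ _ _ _ _ (by push_cast; ring)
    (by push_cast; ring) (by push_cast; ring) (by push_cast; ring) (by norm_num)] at hm
  rw [sm_tgt 7 XsX4_3 1 1 4 TsX4_3 chkSX4_3 (a 0) (a 1) (a 2) (a 3) _ _ _ _ _ (by push_cast; ring)
    (by push_cast; ring) (by push_cast; ring) (by push_cast; ring) (by norm_num)] at hm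
  rw [sm_tgt 7 XtX4_3 30 30 12 TtX4_3 chkTX4_3 (b 0) (b 1) (b 2) (b 3) _ _ _ _ _ (by push_cast; ring)
    (by push_cast; ring) (by push_cast; ring) (by push_cast; ring) (by norm_num)] at hm
  rw [sm_tgt 7 XsX4_4 1 1 4 TsX4_4 chkSX4_4 (a 0) (a 1) (a 2) (a 3) _ _ _ _ _ (by push_cast; ring)
    (by push_cast; ring) (by push_cast; ring) (by push_cast; ring) (by norm_num)] at hm
  rw [sm_tgt 7 XtX4_4 30 30 12 TtX4_4 chkTX4_4 (b 0) (b 1) (b 2) (b 3) _ _ _ _ _ (by push_cast; ring)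
    (by push_cast; ring) (by push_cast; ring) (by push_cast; ring) (by norm_num)] at hm
  rw [sm_tgt 7 XsX4_5 1 1 4 TsX4_5 chkSX4_5 (a 0) (a 1) (a 2) (a 3) _ _ _ _ _ (by push_cast; ring)
    (by push_cast; ring) (by push_cast; ring) (by push_cast; ring) (by norm_num)] at hm
  rw [sm_tgt 7 XtX4_5 30 30 12 TtX4_5 chkTX4_5 (b 0) (b 1) (b 2) (b 3) _ _ _ _ _ (by push_cast; ring)
    (by push_cast; ring) (by push_cast; ring) (by push_cast; ring) (by norm_num)] at hm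
  simp only [TsX4_0, TtX4_0, TsX4_1, TtX4_1, TsX4_2, TtX4_2, TsX4_3, TtX4_3, TsX4_4, TtX4_4, TsX4_5, TtX4_5, tgtR] at hm
  have hs : ∑ σ : Equiv.Perm (Fin 4), KQ alQ a (fun i => b (σ i)) ≤
      ∑ σ : Equiv.Perm (Fin 4), -phiX (uQ a (fun i => b (σ i))) :=
    Finset.sum_le_sum fun σ _ => KQ_al_le a _ ha0 ha (fun i => hb (σ i))
  rw [Finset.sum_neg_distrib] at hs
  rw [← Finset.mul_sum] at hm
  unfold avQ
  have h24 : ((Nat.factorial 4 : ℕ) : ℝ) = 24 := by norm_num [Nat.factorial]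
  rw [h24, div_le_iff₀ (by norm_num)]
  unfold pM4 psK
  simp only [alQ_four, Fin.sum_univ_four]
  generalize (∑ σ : Equiv.Perm (Fin 4), phiX (uQ a (fun i => b (σ i)))) = S at hm hs
  generalize (∑ σ : Equiv.Perm (Fin 4), KQ alQ a (fun i => b (σ i))) = K at hs
  generalize a 0 ^ 2 + a 1 ^ 2 + a 2 ^ 2 + a 3 ^ 2 = x2 at hm
  generalize a 0 ^ 3 + a 1 ^ 3 + a 2 ^ 3 + a 3 ^ 3 = x3 at hm
  generalize a 0 ^ 4 + a 1 ^ 4 + a 2 ^ 4 + a 3 ^ 4 = x4 at hm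
  generalize b 0 ^ 2 + b 1 ^ 2 + b 2 ^ 2 + b 3 ^ 2 = y2 at hm
  generalize b 0 ^ 3 + b 1 ^ 3 + b 2 ^ 3 + b 3 ^ 3 = y3 at hm
  generalize b 0 ^ 4 + b 1 ^ 4 + b 2 ^ 4 + b 3 ^ 4 = y4 at hm
  push_cast at hm
  linarith

end Vale.Agent.P154
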