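import Vale.Agent.P154.R4K.SmPE
import Vale.Agent.P154.R4.BilC
import Vale.Agent.P154.R4.Link

/-!
# P154 q = 4: from the packed kernel check to an inequality for all pairs of vectors

`masterG`: general version.  A vector `P` is *of type* `(g, e, H)` if `P i = g * H + e * C i` with
`C i ≥ 0`, `∑ C i = H`.  (`1 + a` with `a ≥ -1`, `∑ a = 0` is of type `(0, 1, 4)`;
`30 (1 + b)` with `b ≥ -3/5` is of type `(1, 6, 12)`; `70 (1 + b)` with `b ≥ -5/7` is of type `(1, 10, 20)`.)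
`masterK`: the conclusion of `R4/Master.master` from the packed check.
-/

namespace Vale.Agent.P154

open Finset Vale.Agent.Util.Polya

/-- a linear form as an expression -/
def linE (a0 a1 a2 a3 : ℤ) : PE :=
  .add (.add (.mul (.c a0) (.v 0)) (.mul (.c a1) (.v 1)))
    (.add (.mul (.c a2) (.v 2)) (.mul (.c a3) (.v 3)))

theorem ev_linE (p : Fin 4 → ℝ) (a0 a1 a2 a3 : ℤ) :
    PE.ev p (linE a0 a1 a2 a3) = a0 * p 0 + a1 * p 1 + (a2 * p 2 + a3 * p 3) := by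
  simp only [linE, PE.ev]

def eL4 : PE := linE 4 3 2 1
def fE0 (g e : ℤ) : PE := linE (4 * g + e) (3 * g + e) (2 * g + e) (g + e)
def fE1 (g e : ℤ) : PE := linE (4 * g + e) (3 * g + e) (2 * g + e) g
def fE2 (g e : ℤ) : PE := linE (4 * g + e) (3 * g + e) (2 * g) g
def fE3 (g e : ℤ) : PE := linE (4 * g + e) (3 * g) (2 * g) g

/-- `P i = g * H + e * C i` with `C ≥ 0`, `∑ C = H` -/
def SideT (P : Fin 4 → ℝ) (g e : ℤ) (H : ℝ) : Prop :=
  ∃ C : Fin 4 → ℝ, (∀ i, 0 ≤ C i) ∧ ∑ i, C i = H ∧ ∀ i, P i = g * H + e * C i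

theorem SideT.cham {P : Fin 4 → ℝ} {g e : ℤ} {H : ℝ} (h : SideT P g e H) :
    ∃ (τ : Equiv.Perm (Fin 4)) (s : Fin 4 → ℝ), (∀ i, 0 ≤ s i) ∧ PE.ev s eL4 = H ∧
      PE.ev s (fE0 g e) = P (τ 0) ∧ PE.ev s (fE1 g e) = P (τ 1) ∧ PE.ev s (fE2 g e) = P (τ 2) ∧
      PE.ev s (fE3 g e) = P (τ 3) := by
  obtain ⟨C, hC, hs, hP⟩ := h
  obtain ⟨τ, s0, s1, s2, s3, h0, h1, h2, h3, hsum, e0, e1, e2, e3⟩ := cham_perm C hC
  refine ⟨τ, ![s0, s1, s2, s3], ?_, ?_, ?_, ?_, ?_, ?_⟩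
  · intro i
    fin_cases i <;> simpa
  · simp only [eL4, ev_linE, Matrix.cons_val_zero, Matrix.cons_val_one, Matrix.cons_val]
    push_cast
    linarith
  · simp only [fE0, ev_linE, Matrix.cons_val_zero, Matrix.cons_val_one, Matrix.cons_val]
    rw [hP, e0, ← hs, ← hsum]
    push_cast
    ring
  · simp only [fE1, ev_linE, Matrix.cons_val_zero, Matrix.cons_val_one, Matrix.cons_val]
    rw [hP, e1, ← hs, ← hsum]
    push_cast
    ring
  · simp only [fE2, ev_linE, Matrix.cons_val_zero, Matrix.cons_val_one, Matrix.cons_val]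
    rw [hP, e2, ← hs, ← hsum]
    push_cast
    ring
  · simp only [fE3, ev_linE, Matrix.cons_val_zero, Matrix.cons_val_one, Matrix.cons_val]
    rw [hP, e3, ← hs, ← hsum]
    push_cast
    ring

theorem sm_perm (D : ℕ) (L : TL) (P : Fin 4 → ℝ) (τ : Equiv.Perm (Fin 4)) (h : ℝ) :
    sm D L (P (τ 0)) (P (τ 1)) (P (τ 2)) (P (τ 3)) h = sm D L (P 0) (P 1) (P 2) (P 3) h := by
  apply sm_congr
  intro a b c d
  exact pmV_perm P τ a b c d

/-- the list of pairs of expressions of a certificate -/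
def certE (D : ℕ) (g e g' e' : ℤ) (Ld : TL) (Xs Xt : List TL) : List (PE × PE) :=
  pairsE D D (fE0 g e) (fE1 g e) (fE2 g e) (fE3 g e) eL4 (fE0 g' e') (fE1 g' e') (fE2 g' e')
    (fE3 g' e') eL4 (dgS Ld ++ Xs) (dgT Ld ++ Xt)

theorem masterG (w S D : ℕ) (g e g' e' : ℤ) (Ld : TL) (Xs Xt : List TL) (hw : 0 < w) (hD : D < S)
    (hg : good D D w (certE D g e g' e' Ld Xs Xt) = true)
    (hb : 2 * bnd (certE D g e g' e' Ld Xs Xt) < 2 ^ w)
    (hc : check w S D (certE D g e g' e' Ld Xs Xt) 0 (S * S) = true)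
    (P Q : Fin 4 → ℝ) (H H' : ℝ) (hP : SideT P g e H) (hQ : SideT Q g' e' H') :
    0 ≤ ∑ σ : Equiv.Perm (Fin 4),
        sm D Ld (P 0 * Q (σ 0)) (P 1 * Q (σ 1)) (P 2 * Q (σ 2)) (P 3 * Q (σ 3)) (H * H')
      + dotRR (Xs.map (fun l => sm D l (P 0) (P 1) (P 2) (P 3) H))
          (Xt.map (fun l => sm D l (Q 0) (Q 1) (Q 2) (Q 3) H')) := by
  obtain ⟨τ, s, hs, sH, s0, s1, s2, s3⟩ := hP.cham
  obtain ⟨τ', t, ht, tH, t0, t1, t2, t3⟩ := hQ.cham
  have hpos := dotRR_nonneg_of_check w S D D _ _ _ _ _ _ _ _ _ _ _ _ hw hD hD hg hb hc s t hs ht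
  rw [sH, s0, s1, s2, s3, tH, t0, t1, t2, t3] at hpos
  simp only [sm_perm] at hpos
  rw [List.map_append, List.map_append, dotRR_append _ _ _ _ (by simp [dgS, dgT]), dotRR_diag] at hpos
  exact hpos

theorem sideT_one (a : Fin 4 → ℝ) (ha0 : ∑ i, a i = 0) (ha : ∀ i, -1 ≤ a i) :
    SideT (fun i => 1 + a i) 0 1 4 := by
  refine ⟨fun i => 1 + a i, fun i => by linarith [ha i], ?_, fun i => by push_cast; ring⟩
  rw [Finset.sum_add_distrib, ha0]
  simp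

theorem sideT_35 (b : Fin 4 → ℝ) (hb0 : ∑ i, b i = 0) (hb : ∀ i, -(3 / 5) ≤ b i) :
    SideT (fun i => 30 * (1 + b i)) 1 6 12 := by
  refine ⟨fun i => 3 + 5 * b i, fun i => by linarith [hb i], ?_, fun i => by push_cast; ring⟩
  rw [Finset.sum_add_distrib, ← Finset.mul_sum, hb0]
  simp
  norm_num

theorem sideT_57 (b : Fin 4 → ℝ) (hb0 : ∑ i, b i = 0) (hb : ∀ i, -(5 / 7) ≤ b i) :
    SideT (fun i => 70 * (1 + b i)) 1 10 20 := by
  refine ⟨fun i => 5 + 7 * b i, fun i => by linarith [hb i], ?_, fun i => by push_cast; ring⟩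
  rw [Finset.sum_add_distrib, ← Finset.mul_sum, hb0]
  simp
  norm_num

/-- the conclusion of `R4/Master.master` from the packed check -/
theorem masterK (w S D : ℕ) (Ld : TL) (Xs Xt : List TL) (hw : 0 < w) (hD : D < S)
    (hg : good D D w (certE D 0 1 1 6 Ld Xs Xt) = true)
    (hb' : 2 * bnd (certE D 0 1 1 6 Ld Xs Xt) < 2 ^ w)
    (hc : check w S D (certE D 0 1 1 6 Ld Xs Xt) 0 (S * S) = true)
    (a b : Fin 4 → ℝ) (ha0 : ∑ i, a i = 0) (ha : ∀ i, -1 ≤ a i) (hb0 : ∑ i, b i = 0)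
    (hb : ∀ i, -(3 / 5) ≤ b i) :
    0 ≤ ∑ σ : Equiv.Perm (Fin 4),
        sm D Ld (120 * uQ a (fun i => b (σ i)) 0) (120 * uQ a (fun i => b (σ i)) 1)
          (120 * uQ a (fun i => b (σ i)) 2) (120 * uQ a (fun i => b (σ i)) 3) 48
      + dotRR (Xs.map (fun l => sm D l (1 + a 0) (1 + a 1) (1 + a 2) (1 + a 3) 4))
          (Xt.map (fun l => sm D l (30 * (1 + b 0)) (30 * (1 + b 1)) (30 * (1 + b 2))
            (30 * (1 + b 3)) 12)) := by
  have h := masterG w S D 0 1 1 6 Ld Xs Xt hw hD hg hb' hc _ _ 4 12 (sideT_one a ha0 ha)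
    (sideT_35 b hb0 hb)
  have e : ∀ (σ : Equiv.Perm (Fin 4)) (i : Fin 4),
      (1 + a i) * (30 * (1 + b (σ i))) = 120 * uQ a (fun i => b (σ i)) i := by
    intro σ i
    unfold uQ
    ring
  simp only [e] at h
  have e48 : (4 : ℝ) * 12 = 48 := by norm_num
  rw [e48] at h
  exact h

/-- one-sided version: positivity of a symmetric sum on a simplex -/
def oneE (D : ℕ) (g e : ℤ) (l : TL) : List (PE × PE) :=
  [(smE D l (fE0 g e) (fE1 g e) (fE2 g e) (fE3 g e) eL4, .c 1)]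

theorem sm_nonneg_of_check (w S D : ℕ) (g e : ℤ) (l : TL) (hw : 0 < w) (hD : D < S)
    (hg : good D 0 w (oneE D g e l) = true) (hb : 2 * bnd (oneE D g e l) < 2 ^ w)
    (hc : check w S D (oneE D g e l) 0 (S * S) = true)
    (P : Fin 4 → ℝ) (H : ℝ) (hP : SideT P g e H) : 0 ≤ sm D l (P 0) (P 1) (P 2) (P 3) H := by
  obtain ⟨τ, s, hs, sH, s0, s1, s2, s3⟩ := hP.cham
  have hpos := polya_bilinear w S D 0 _ hw hD (by omega) hg hb hc s s hs hs
  simp only [oneE, List.map_cons, List.map_nil, List.sum_cons, List.sum_nil, ev_smE, PE.ev,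
    Int.cast_one, mul_one, add_zero] at hpos
  rw [sH, s0, s1, s2, s3, sm_perm] at hpos
  exact hpos

end Vale.Agent.P154
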