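import Vale.Agent.P154.R4K.SmPE

/-! # P154 q = 4: expressions for symmetric polynomials given through power sums -/

namespace Vale.Agent.P154

open Vale.Agent.Util.Polya Finset

/-- the expression `c1 * x_i + c0` -/
def dE (c0 c1 : ℤ) (i : Fin 4) : PE := .add (.mul (.c c1) (.v i)) (.c c0)

/-- the power sum `∑ (c1 * x_i + c0) ^ n` -/
def psE (c0 c1 : ℤ) (n : ℕ) : PE :=
  .add (.add (.pow (dE c0 c1 0) n) (.pow (dE c0 c1 1) n))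
    (.add (.pow (dE c0 c1 2) n) (.pow (dE c0 c1 3) n))

/-- `R0 + R2 S2 + R3 S3 + R22 S2 ^ 2 + R4 S4`, `S_n` the power sums of `c1 * x_i + c0` -/
def sideE (c0 c1 R0 R2 R3 R22 R4 : ℤ) : PE :=
  .add (.add (.add (.add (.c R0) (.mul (.c R2) (psE c0 c1 2))) (.mul (.c R3) (psE c0 c1 3)))
    (.mul (.c R22) (.pow (psE c0 c1 2) 2))) (.mul (.c R4) (psE c0 c1 4))

theorem ev_sideE (p d : Fin 4 → ℝ) (c0 c1 R0 R2 R3 R22 R4 : ℤ)
    (h : ∀ i, (c1 : ℝ) * p i + (c0 : ℝ) = d i) :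
    PE.ev p (sideE c0 c1 R0 R2 R3 R22 R4) =
      R0 + R2 * (∑ i, d i ^ 2) + R3 * (∑ i, d i ^ 3) + R22 * (∑ i, d i ^ 2) ^ 2
        + R4 * ∑ i, d i ^ 4 := by
  simp only [sideE, psE, dE, PE.ev, h, Fin.sum_univ_four]
  ring

def e1E : PE := .add (.add (.v 0) (.v 1)) (.add (.v 2) (.v 3))
def e2E : PE :=
  .add (.add (.add (.mul (.v 0) (.v 1)) (.mul (.v 0) (.v 2))) (.add (.mul (.v 0) (.v 3)) (.mul (.v 1) (.v 2))))
    (.add (.mul (.v 1) (.v 3)) (.mul (.v 2) (.v 3)))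
def e3E : PE :=
  .add (.add (.mul (.mul (.v 0) (.v 1)) (.v 2)) (.mul (.mul (.v 0) (.v 1)) (.v 3)))
    (.add (.mul (.mul (.v 0) (.v 2)) (.v 3)) (.mul (.mul (.v 1) (.v 2)) (.v 3)))

theorem ev_e1E (p : Fin 4 → ℝ) : PE.ev p e1E = e1Q p := by
  simp only [e1E, PE.ev, e1Q]; ring

theorem ev_e2E (p : Fin 4 → ℝ) : PE.ev p e2E = e2Q p := by
  simp only [e2E, PE.ev, e2Q]; ring

theorem ev_e3E (p : Fin 4 → ℝ) : PE.ev p e3E = e3Q p := by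
  simp only [e3E, PE.ev, e3Q]; ring

end Vale.Agent.P154
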