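import Vale.Agent.P154.R4.Bil
import Vale.Agent.Util.PolyaCheck

/-!
# P154 q = 4: the symmetric sums `sm` as polynomial expressions; fast positivity check

`smE` is the symmetric sum `sm` of `R4/Sm.lean` as a polynomial expression (`Util/PolyExpr.lean`).
`dotRR_nonneg_of_check`: positivity of `∑_j H_j(s) G_j(t)` (`H_j`, `G_j` symmetric sums of linear
forms in `s`, `t ≥ 0`) from the check of `Util/PolyaCheck.lean`, which needs no coefficient tables.
-/

namespace Vale.Agent.P154

open Vale.Agent.Util.Polya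

def pm2E (x y : PE) (a b : ℕ) : PE :=
  .add (.mul (.pow x a) (.pow y b)) (.mul (.pow x b) (.pow y a))

def pm3E (x y z : PE) (a b c : ℕ) : PE :=
  .add (.add (.mul (.pow x a) (pm2E y z b c)) (.mul (.pow x b) (pm2E y z a c)))
    (.mul (.pow x c) (pm2E y z a b))

def pm4E (x y z w : PE) (a b c d : ℕ) : PE :=
  .add (.add (.add (.mul (.pow x a) (pm3E y z w b c d)) (.mul (.pow x b) (pm3E y z w a c d)))
    (.mul (.pow x c) (pm3E y z w a b d))) (.mul (.pow x d) (pm3E y z w a b c))

def smE (D : ℕ) : TL → PE → PE → PE → PE → PE → PE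
  | [], _, _, _, _, h => .mul (.c 0) (.pow h D)
  | (c, a, b, c', d) :: L, x, y, z, w, h =>
    .add (.mul (.c c) (.mul (pm4E x y z w a b c' d) (.pow h (D - (a + b + c' + d)))))
      (smE D L x y z w h)

theorem ev_pm2E (p : Fin 4 → ℝ) (x y : PE) (a b : ℕ) :
    PE.ev p (pm2E x y a b) = pm2 (PE.ev p x) (PE.ev p y) a b := by
  simp only [pm2E, pm2, PE.ev]

theorem ev_pm3E (p : Fin 4 → ℝ) (x y z : PE) (a b c : ℕ) :
    PE.ev p (pm3E x y z a b c) = pm3 (PE.ev p x) (PE.ev p y) (PE.ev p z) a b c := by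
  simp only [pm3E, pm3, PE.ev, ev_pm2E]

theorem ev_pm4E (p : Fin 4 → ℝ) (x y z w : PE) (a b c d : ℕ) :
    PE.ev p (pm4E x y z w a b c d) =
      pm4 (PE.ev p x) (PE.ev p y) (PE.ev p z) (PE.ev p w) a b c d := by
  simp only [pm4E, pm4, PE.ev, ev_pm3E]

theorem ev_smE (p : Fin 4 → ℝ) (D : ℕ) (L : TL) (x y z w h : PE) :
    PE.ev p (smE D L x y z w h) =
      sm D L (PE.ev p x) (PE.ev p y) (PE.ev p z) (PE.ev p w) (PE.ev p h) := by
  induction L with
  | nil => simp [smE, sm, PE.ev]
  | cons t L ih =>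
    obtain ⟨c, a, b, c', d⟩ := t
    simp only [smE, sm, PE.ev, ev_pm4E, ih]

theorem dotRR_map_map {α β : Type} (f : α → ℝ) (g : β → ℝ) (l1 : List α) (l2 : List β) :
    dotRR (l1.map f) (l2.map g) = ((l1.zip l2).map fun uv => f uv.1 * g uv.2).sum := by
  induction l1 generalizing l2 with
  | nil => simp [dotRR]
  | cons a l1 ih =>
    cases l2 with
    | nil => simp [dotRR]
    | cons b l2 => simp [dotRR, ih]

/-- The list of pairs of expressions that belongs to two lists of symmetric sums. -/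
def pairsE (D D' : ℕ) (x y z u h x' y' z' u' h' : PE) (Ls Ls' : List TL) : List (PE × PE) :=
  (Ls.zip Ls').map fun LL => (smE D LL.1 x y z u h, smE D' LL.2 x' y' z' u' h')

/-- Positivity of a bilinear expression in symmetric sums from the packed coefficient check. -/
theorem dotRR_nonneg_of_check (w S D D' : ℕ) (x y z u h x' y' z' u' h' : PE) (Ls Ls' : List TL)
    (hw : 0 < w) (hD : D < S) (hD' : D' < S)
    (hg : good D D' w (pairsE D D' x y z u h x' y' z' u' h' Ls Ls') = true)
    (hb : 2 * bnd (pairsE D D' x y z u h x' y' z' u' h' Ls Ls') < 2 ^ w)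
    (hc : check w S D (pairsE D D' x y z u h x' y' z' u' h' Ls Ls') 0 (S * S) = true)
    (s t : Fin 4 → ℝ) (hs : ∀ i, 0 ≤ s i) (ht : ∀ i, 0 ≤ t i) :
    0 ≤ dotRR
      (Ls.map fun L => sm D L (PE.ev s x) (PE.ev s y) (PE.ev s z) (PE.ev s u) (PE.ev s h))
      (Ls'.map fun L => sm D' L (PE.ev t x') (PE.ev t y') (PE.ev t z') (PE.ev t u') (PE.ev t h')) := by
  have := polya_bilinear w S D D' _ hw hD hD' hg hb hc s t hs ht
  rw [dotRR_map_map]
  simpa only [pairsE, List.map_map, Function.comp_def, ev_smE] using this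

end Vale.Agent.P154
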