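import Vale.Agent.P154.R4K.SmPE
import Vale.Agent.Util.Pit4

/-! # P154 q = 4: identities `sm D L .. = target` by the packed identity check (fast analogue of `sm_eq_of_chk`) -/

namespace Vale.Agent.P154

open Vale.Agent.Util.Polya

/-- polynomial identities (four variables, not nec. homogeneous) by computation with packed numbers -/
theorem sm_eq_of_pit4 (w S D : ℕ) (L : TL) (x y z u h tgt : PE)
    (hc : pit4 w S (smE D L x y z u h) tgt = true) (p : Fin 4 → ℝ) :
    sm D L (PE.ev p x) (PE.ev p y) (PE.ev p z) (PE.ev p u) (PE.ev p h) = PE.ev p tgt := by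
  rw [← ev_smE]
  exact ev_eq_of_pit4 hc p

end Vale.Agent.P154
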