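import Vale.Agent.P154.R4K.MasterK

/-!
# P154 q = 4: symmetric sums `sm` of shifted vectors as polynomials in the power sums

`tgtR T x2 x3 x4 = ∑ c * x2 ^ i * x3 ^ j * x4 ^ k` over the entries `(c, i, j, k)` of `T`.
`sm_tgt`: a kernel computation shows `sm D l (c a + e) h = tgtR T (∑ a^2) (∑ a^3) (∑ a^4)`.
-/

namespace Vale.Agent.P154

abbrev TG := List (ℤ × ℕ × ℕ × ℕ)

noncomputable def tgtR : TG → ℝ → ℝ → ℝ → ℝ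
  | [], _, _, _ => 0
  | (c, i, j, k) :: T, x2, x3, x4 => (c : ℝ) * (x2 ^ i * (x3 ^ j * x4 ^ k)) + tgtR T x2 x3 x4

/-- the power sum of the four variables -/
def pwP (n : ℕ) : P4 :=
  add4 (add4 (add4 (pow4 (lin4 1 0 0 0 0) n) (pow4 (lin4 0 1 0 0 0) n)) (pow4 (lin4 0 0 1 0 0) n))
    (pow4 (lin4 0 0 0 1 0) n)

def tgtP : TG → P4
  | [] => []
  | (c, i, j, k) :: T =>
    ax4 c (mul4 (pow4 (pwP 2) i) (mul4 (pow4 (pwP 3) j) (pow4 (pwP 4) k))) (tgtP T)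

theorem ev4_pwP (a0 a1 a2 a3 : ℝ) (n : ℕ) :
    ev4 a0 a1 a2 a3 (pwP n) = a0 ^ n + a1 ^ n + a2 ^ n + a3 ^ n := by
  simp only [pwP, ev4_add, ev4_pow, ev4_lin]
  push_cast
  ring

theorem ev4_tgtP (a0 a1 a2 a3 : ℝ) (T : TG) :
    ev4 a0 a1 a2 a3 (tgtP T) = tgtR T (a0 ^ 2 + a1 ^ 2 + a2 ^ 2 + a3 ^ 2)
      (a0 ^ 3 + a1 ^ 3 + a2 ^ 3 + a3 ^ 3) (a0 ^ 4 + a1 ^ 4 + a2 ^ 4 + a3 ^ 4) := by
  induction T with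
  | nil => simp [tgtP, tgtR, ev4_nil]
  | cons t T ih =>
    obtain ⟨c, i, j, k⟩ := t
    simp only [tgtP, tgtR, ev4_ax, ev4_mul, ev4_pow, ev4_pwP, ih]

/-- the test for `sm_tgt` -/
def chkT (D : ℕ) (l : TL) (c e hh : ℤ) (T : TG) : Bool :=
  zr4 (ax4 (-1) (smP D l (lin4 c 0 0 0 e) (lin4 0 c 0 0 e) (lin4 0 0 c 0 e) (lin4 0 0 0 c e)
    (cst4 hh)) (tgtP T))

theorem sm_tgt (D : ℕ) (l : TL) (c e hh : ℤ) (T : TG) (hc : chkT D l c e hh T = true)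
    (a0 a1 a2 a3 x0 x1 x2 x3 h : ℝ) (h0 : x0 = c * a0 + e) (h1 : x1 = c * a1 + e)
    (h2 : x2 = c * a2 + e) (h3 : x3 = c * a3 + e) (hh' : h = hh) :
    sm D l x0 x1 x2 x3 h = tgtR T (a0 ^ 2 + a1 ^ 2 + a2 ^ 2 + a3 ^ 2)
      (a0 ^ 3 + a1 ^ 3 + a2 ^ 3 + a3 ^ 3) (a0 ^ 4 + a1 ^ 4 + a2 ^ 4 + a3 ^ 4) := by
  have h := sm_eq_of_chk D l _ _ _ _ _ _ hc a0 a1 a2 a3
  rw [ev4_tgtP] at h
  rw [← h, ev4_lin, ev4_lin, ev4_lin, ev4_lin, ev4_cst, h0, h1, h2, h3, hh']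
  congr 1 <;> (push_cast; ring)

/-! ### symmetric sums of a scaled vector as a polynomial in the vector -/

def e1P : P4 := lin4 1 1 1 1 0

/-- `e1 - 1` -/
def zP : P4 := lin4 1 1 1 1 (-1)

def e2P : P4 :=
  add4 (add4 (add4 (mul4 (lin4 1 0 0 0 0) (lin4 0 1 0 0 0)) (mul4 (lin4 1 0 0 0 0) (lin4 0 0 1 0 0)))
    (add4 (mul4 (lin4 1 0 0 0 0) (lin4 0 0 0 1 0)) (mul4 (lin4 0 1 0 0 0) (lin4 0 0 1 0 0))))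
    (add4 (mul4 (lin4 0 1 0 0 0) (lin4 0 0 0 1 0)) (mul4 (lin4 0 0 1 0 0) (lin4 0 0 0 1 0)))

def e3P : P4 :=
  add4 (add4 (mul4 (lin4 1 0 0 0 0) (mul4 (lin4 0 1 0 0 0) (lin4 0 0 1 0 0)))
      (mul4 (lin4 1 0 0 0 0) (mul4 (lin4 0 1 0 0 0) (lin4 0 0 0 1 0))))
    (add4 (mul4 (lin4 1 0 0 0 0) (mul4 (lin4 0 0 1 0 0) (lin4 0 0 0 1 0)))
      (mul4 (lin4 0 1 0 0 0) (mul4 (lin4 0 0 1 0 0) (lin4 0 0 0 1 0))))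

theorem ev4_e1P (u : Fin 4 → ℝ) : ev4 (u 0) (u 1) (u 2) (u 3) e1P = e1Q u := by
  simp only [e1P, ev4_lin, e1Q]
  push_cast
  ring

theorem ev4_zP (u : Fin 4 → ℝ) : ev4 (u 0) (u 1) (u 2) (u 3) zP = e1Q u - 1 := by
  simp only [zP, ev4_lin, e1Q]
  push_cast
  ring

theorem ev4_e2P (u : Fin 4 → ℝ) : ev4 (u 0) (u 1) (u 2) (u 3) e2P = e2Q u := by
  simp only [e2P, ev4_add, ev4_mul, ev4_lin, e2Q]
  push_cast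
  ring

theorem ev4_e3P (u : Fin 4 → ℝ) : ev4 (u 0) (u 1) (u 2) (u 3) e3P = e3Q u := by
  simp only [e3P, ev4_add, ev4_mul, ev4_lin, e3Q]
  push_cast
  ring

/-- the test for `sm_tgtU` -/
def chkU (D : ℕ) (l : TL) (c hh : ℤ) (tgt : P4) : Bool :=
  zr4 (ax4 (-1) (smP D l (lin4 c 0 0 0 0) (lin4 0 c 0 0 0) (lin4 0 0 c 0 0) (lin4 0 0 0 c 0)
    (cst4 hh)) tgt)

theorem sm_tgtU (D : ℕ) (l : TL) (c hh : ℤ) (tgt : P4) (hc : chkU D l c hh tgt = true)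
    (u : Fin 4 → ℝ) (x0 x1 x2 x3 h : ℝ) (h0 : x0 = c * u 0) (h1 : x1 = c * u 1)
    (h2 : x2 = c * u 2) (h3 : x3 = c * u 3) (hh' : h = hh) :
    sm D l x0 x1 x2 x3 h = ev4 (u 0) (u 1) (u 2) (u 3) tgt := by
  have h := sm_eq_of_chk D l _ _ _ _ _ _ hc (u 0) (u 1) (u 2) (u 3)
  rw [← h, ev4_lin, ev4_lin, ev4_lin, ev4_lin, ev4_cst, h0, h1, h2, h3, hh']
  congr 1 <;> (push_cast; ring)

end Vale.Agent.P154
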